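import Mathlib

/-! The one-dimensional reduced problem (moment coordinate `x ∈ (0,1)`), see notes/P264.md. -/

open Set

namespace Vale.Agent.P264

/-- Scalar curvature and its first three `x`-derivatives in terms of the jet `w k = d^k w/dx^k`. -/
def S0 (w : ℕ → ℝ) (x : ℝ) : ℝ := x ^ 2 * w 2 + 16 * x * w 1 + 56 * w 0
def S1 (w : ℕ → ℝ) (x : ℝ) : ℝ := x ^ 2 * w 3 + 18 * x * w 2 + 72 * w 1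
def S2 (w : ℕ → ℝ) (x : ℝ) : ℝ := x ^ 2 * w 4 + 20 * x * w 3 + 90 * w 2
def S3 (w : ℕ → ℝ) (x : ℝ) : ℝ := x ^ 2 * w 5 + 22 * x * w 4 + 110 * w 3

/-- A global smooth solution of the reduced flow `w_t = -(1 - x w)^2 (S0 w)_xx`.
`w t x k` is the `k`-th `x`-derivative of `w` at `(t,x)` and `v t x k` its time derivative. -/
structure Sol where
  w : ℝ → ℝ → ℕ → ℝ
  v : ℝ → ℝ → ℕ → ℝ
  dx : ∀ k t x, 0 ≤ t → x ∈ Ioo (0:ℝ) 1 → HasDerivAt (fun y => w t y k) (w t x (k + 1)) x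
  dt : ∀ k t x, 0 < t → x ∈ Ioo (0:ℝ) 1 → HasDerivAt (fun τ => w τ x k) (v t x k) t
  dv : ∀ k t x, 0 < t → x ∈ Ioo (0:ℝ) 1 → HasDerivAt (fun y => v t y k) (v t x (k + 1)) x
  cw : ∀ k, ContinuousOn (fun p : ℝ × ℝ => w p.1 p.2 k) (Ici 0 ×ˢ Ioo 0 1)
  cv : ∀ k, ContinuousOn (fun p : ℝ × ℝ => v p.1 p.2 k) (Ioi 0 ×ˢ Ioo 0 1)
  pde : ∀ t x, 0 < t → x ∈ Ioo (0:ℝ) 1 → v t x 0 = -(1 - x * w t x 0) ^ 2 * S2 (w t x) x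
  pos : ∀ t x, 0 ≤ t → x ∈ Ioo (0:ℝ) 1 → 0 < 1 - x * w t x 0
  b0 : ∀ T : ℝ, ∃ C : ℝ, ∀ t ∈ Icc (0:ℝ) T, ∀ x ∈ Ioc (0:ℝ) (1 / 2),
    |w t x 0| ≤ C ∧ ∀ k, 1 ≤ k → k ≤ 5 → x ^ k * |w t x k| ≤ C * √x
  b1 : ∀ T : ℝ, ∃ C c : ℝ, 0 < c ∧ ∀ t ∈ Icc (0:ℝ) T, ∀ x ∈ Ico (1 / 2 : ℝ) 1,
    c * (1 - x) ≤ 1 - x * w t x 0 ∧ 1 - x * w t x 0 ≤ C * (1 - x) ∧
    |w t x 1| ≤ C * √(1 - x) ∧ |S0 (w t x) x| ≤ C ∧ |S1 (w t x) x| ≤ C ∧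
    √(1 - x) * |S2 (w t x) x| ≤ C ∧ √(1 - x) ^ 3 * |S3 (w t x) x| ≤ C

/-- Admissible initial data `w = 1 + (1-x)^2 c(x)`, so that `1 - x w = (1-x)(1 - x(1-x)c)`. -/
def InitOK (c : Polynomial ℝ) : Prop := ∀ x ∈ Icc (0:ℝ) 1, 0 < 1 - x * (1 - x) * c.eval x

/-- `S` starts from the initial datum given by the polynomial `c`. -/
def Starts (S : Sol) (c : Polynomial ℝ) : Prop :=
  ∀ x ∈ Ioo (0:ℝ) 1, S.w 0 x 0 = 1 + (1 - x) ^ 2 * c.eval x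

end Vale.Agent.P264
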