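import Mathlib
import Vale.Agent.P371.Brouwer

/-! Block D: the Wazewski / Brouwer argument (abstract). Plan in notes/P264.md, section D. -/

open Set

namespace Vale.Agent.P264

/-- `θ` is trapped before time `s1`. -/
def Trapped (Q : ℝ × ℝ → ℝ → ℝ) (μ s0 : ℝ) (θ : ℝ × ℝ) (s1 : ℝ) : Prop :=
  ∀ s ∈ Ico s0 s1, -μ < Q θ s

theorem topo_exit {q : ℝ → ℝ} {μ s0 : ℝ} (hc : ContinuousOn q (Ici s0))
    (he : ∃ s, s0 ≤ s ∧ q s ≤ -μ) : ∃ T, s0 ≤ T ∧ (∀ s ∈ Ico s0 T, -μ < q s) ∧ q T ≤ -μ := by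
  have h1 : IsClosed (Ici s0 ∩ q ⁻¹' Iic (-μ)) :=
    hc.preimage_isClosed_of_isClosed isClosed_Ici isClosed_Iic
  have h2 := h1.isLeast_csInf he ⟨s0, fun _ h => h.1⟩
  exact ⟨_, h2.1.1, fun s hs => not_le.1 fun h => not_le.2 hs.2 (h2.2 ⟨hs.1, h⟩), h2.1.2⟩

theorem topo_brouwer {F : ℝ × ℝ → ℝ × ℝ} {ρ k : ℝ} {e : ℝ × ℝ} (M : ℝ × ℝ →ₗ[ℝ] ℝ × ℝ)
    (hρ : 0 < ρ) (hk : 0 < k) (hF : ContinuousOn F {θ | ‖θ‖ ≤ ρ})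
    (h0 : ∀ θ, ‖θ‖ ≤ ρ → F θ ≠ 0) (hb : ∀ θ, ‖θ‖ = ρ → F θ = e + M θ)
    (hM : ∀ θ, k * ‖θ‖ ≤ ‖M θ‖) (he : ‖e‖ < k * ρ) : False := by
  have hinj : Function.Injective M := (injective_iff_map_eq_zero M).2 fun θ h => by
    have h1 := hM θ
    rw [h, norm_zero] at h1
    exact norm_le_zero_iff.1 (nonpos_of_mul_nonpos_right h1 hk |> fun x => x)
  obtain ⟨L, hL⟩ : ∃ L : (ℝ × ℝ) ≃ₗ[ℝ] ℝ × ℝ, ∀ θ, L θ = M θ :=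
    ⟨LinearEquiv.ofInjectiveEndo M hinj, fun _ => rfl⟩
  have hm : ∀ θ : ℝ × ℝ, 0 < max ρ ‖θ‖ := fun θ => lt_max_of_lt_left hρ
  have c1 : Continuous fun θ : ℝ × ℝ => (ρ / max ρ ‖θ‖) • θ :=
    (continuous_const.div (continuous_const.max continuous_norm) fun θ => (hm θ).ne').smul
      continuous_id
  have r1 : ∀ θ : ℝ × ℝ, ‖(ρ / max ρ ‖θ‖) • θ‖ ≤ ρ := fun θ => by
    rw [norm_smul, Real.norm_of_nonneg (div_pos hρ (hm θ)).le, div_mul_eq_mul_div,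
      div_le_iff₀ (hm θ)]
    exact mul_le_mul_of_nonneg_left (le_max_right _ _) hρ.le
  obtain ⟨N, c2, n0, hN⟩ : ∃ N : ℝ × ℝ → ℝ × ℝ, Continuous N ∧ (∀ θ, N θ ≠ 0) ∧
      ∀ θ, ‖θ‖ = ρ → N θ = L.symm e + θ := by
    refine ⟨fun θ => L.symm (F ((ρ / max ρ ‖θ‖) • θ)),
      L.symm.toLinearMap.continuous_of_finiteDimensional.comp (hF.comp_continuous c1 r1),
      fun θ h => h0 _ (r1 θ) (L.symm.map_eq_zero_iff.1 h), fun θ h => ?_⟩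
    simp only [h, max_self, div_self hρ.ne', one_smul]
    rw [hb θ h, ← hL, map_add, L.symm_apply_apply]
  have n1 : ∀ θ, ‖-(ρ / ‖N θ‖) • N θ‖ = ρ := fun θ => by
    rw [norm_smul, norm_neg, Real.norm_of_nonneg (div_nonneg hρ.le (norm_nonneg _)),
      div_mul_cancel₀ _ (norm_ne_zero_iff.2 (n0 θ))]
  obtain ⟨θ, hθ⟩ := Vale.Agent.P371.brouwer_bounded (f := fun θ => -(ρ / ‖N θ‖) • N θ)
    ((continuous_const.div c2.norm fun θ => norm_ne_zero_iff.2 (n0 θ)).neg.smul c2)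
    fun θ => (n1 θ).le
  have h1 : ‖θ‖ = ρ := hθ ▸ n1 θ
  have h2 : 0 < ρ / ‖N θ‖ := div_pos hρ (norm_pos_iff.2 (n0 θ))
  generalize ρ / ‖N θ‖ = c at hθ h2
  have h3 : (1 + c) • θ = -c • L.symm e := by
    rw [hN θ h1, smul_add] at hθ
    rw [add_smul, one_smul, ← sub_eq_iff_eq_add.2 (hθ.symm.trans rfl), neg_smul, sub_neg_eq_add]
  have h4 := congrArg norm h3
  rw [norm_smul, norm_smul, norm_neg, Real.norm_of_nonneg h2.le,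
    Real.norm_of_nonneg (by linarith), h1] at h4
  have h5 := hM (L.symm e)
  rw [← hL, L.apply_symm_apply] at h5
  have h6 : ‖L.symm e‖ < ρ := lt_of_mul_lt_mul_left (h5.trans_lt he) hk.le
  nlinarith

theorem topo (Q : ℝ × ℝ → ℝ → ℝ) (P : ℝ × ℝ → ℝ → ℝ × ℝ) (μ s0 ρ k : ℝ) (e : ℝ × ℝ)
    (M : ℝ × ℝ →ₗ[ℝ] ℝ × ℝ) (hρ : 0 < ρ) (hk : 0 < k)
    (cQ : ∀ θ, ‖θ‖ ≤ ρ → ContinuousOn (Q θ) (Ici s0))
    (cP : ∀ θ, ‖θ‖ ≤ ρ → ContinuousOn (P θ) (Ici s0))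
    (exits : ∀ θ, ‖θ‖ ≤ ρ → ∃ s, s0 ≤ s ∧ Q θ s ≤ -μ)
    (trans : ∀ θ, ‖θ‖ ≤ ρ → ∀ s1, s0 ≤ s1 → Trapped Q μ s0 θ s1 → Q θ s1 ≤ -μ →
      ∃ h, 0 < h ∧ ∀ s ∈ Ioo s1 (s1 + h), Q θ s < -μ)
    (nz : ∀ θ, ‖θ‖ ≤ ρ → ∀ s, s0 ≤ s → Q θ s ≤ -μ → P θ s ≠ 0)
    (stab : ∀ θ0, ‖θ0‖ ≤ ρ → ∀ S ε : ℝ, 0 < ε → ∃ δ, 0 < δ ∧ ∀ θ, ‖θ‖ ≤ ρ → ‖θ - θ0‖ < δ →
      ∀ s1 ∈ Icc s0 S, Trapped Q μ s0 θ s1 →
        (∀ s ∈ Icc s0 s1, Q θ0 s - ε ≤ Q θ s ∧ ‖P θ s - P θ0 s‖ ≤ ε) ∧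
        ∀ a b, s0 ≤ a → a ≤ b → b ≤ s1 →
          ∫ s in a..b, Q θ s ≤ (∫ s in a..b, Q θ0 s) + ε)
    (bdry : ∀ θ, ‖θ‖ = ρ → Q θ s0 ≤ -μ ∧ P θ s0 = e + M θ)
    (hM : ∀ θ, k * ‖θ‖ ≤ ‖M θ‖) (he : ‖e‖ < k * ρ) : False := by
  have hT : ∀ θ, ∃ T, ‖θ‖ ≤ ρ → s0 ≤ T ∧ Trapped Q μ s0 θ T ∧ Q θ T ≤ -μ := fun θ => by
    by_cases h : ‖θ‖ ≤ ρ
    · obtain ⟨T, hT⟩ := topo_exit (cQ θ h) (exits θ h)
      exact ⟨T, fun _ => hT⟩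
    · exact ⟨0, fun h' => absurd h' h⟩
  choose T hT using hT
  have up : ∀ θ0, ‖θ0‖ ≤ ρ → ∀ ε, 0 < ε → ∃ δ, 0 < δ ∧ ∀ θ, ‖θ‖ ≤ ρ → ‖θ - θ0‖ < δ →
      T θ < T θ0 + ε := fun θ0 h0 ε hε => by
    obtain ⟨t1, t2, t3⟩ := hT θ0 h0
    obtain ⟨h, hh, h1⟩ := trans θ0 h0 _ t1 t2 t3
    have m0 := lt_min hh hε
    have m1 := min_le_left h ε
    have m2 := min_le_right h ε
    obtain ⟨a, ha⟩ : ∃ a, a = T θ0 + min h ε / 3 := ⟨_, rfl⟩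
    obtain ⟨b, hb⟩ : ∃ b, b = T θ0 + 2 * min h ε / 3 := ⟨_, rfl⟩
    have hab : a < b := by linarith
    have hs : Icc a b ⊆ Ici s0 := fun s hs => by
      have := hs.1
      show s0 ≤ s
      linarith
    have h2 : ∫ s in a..b, Q θ0 s < ∫ _ in a..b, -μ :=
      intervalIntegral.integral_lt_integral_of_continuousOn_of_le_of_exists_lt hab
        ((cQ θ0 h0).mono hs) continuousOn_const
        (fun s hs => (h1 s ⟨by linarith [hs.1], by linarith [hs.2]⟩).le)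
        ⟨a, left_mem_Icc.2 hab.le, h1 a ⟨by linarith, by linarith⟩⟩
    obtain ⟨δ, hδ, h3⟩ := stab θ0 h0 b _ (half_pos (sub_pos.2 h2))
    refine ⟨δ, hδ, fun θ h4 h5 => lt_of_lt_of_le (not_le.1 fun h6 => ?_) (by linarith : b ≤ _)⟩
    have h7 : Trapped Q μ s0 θ b := fun s hs => (hT θ h4).2.1 s ⟨hs.1, hs.2.trans_le h6⟩
    have h8 := (h3 θ h4 h5 b ⟨by linarith, le_rfl⟩ h7).2 a b (by linarith) hab.le le_rfl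
    have h9 : ∫ _ in a..b, -μ ≤ ∫ s in a..b, Q θ s :=
      intervalIntegral.integral_mono_on_of_le_Ioo hab.le intervalIntegrable_const
        (((cQ θ h4).mono hs).intervalIntegrable_of_Icc hab.le)
        fun s h => (h7 s ⟨by linarith [h.1], h.2⟩).le
    linarith
  have lo : ∀ θ0, ‖θ0‖ ≤ ρ → ∀ ε, 0 < ε → ∃ δ, 0 < δ ∧ ∀ θ, ‖θ‖ ≤ ρ → ‖θ - θ0‖ < δ →
      T θ0 - ε < T θ := fun θ0 h0 ε hε => by
    obtain ⟨c, hc, h1⟩ := (isCompact_Icc (a := s0) (b := T θ0 - ε)).exists_forall_le'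
      ((cQ θ0 h0).mono Icc_subset_Ici_self) (a := -μ)
      fun s hs => (hT θ0 h0).2.1 s ⟨hs.1, by linarith [hs.2]⟩
    obtain ⟨δ, hδ, h3⟩ := stab θ0 h0 (T θ0 - ε) _ (half_pos (sub_pos.2 hc))
    refine ⟨δ, hδ, fun θ h4 h5 => not_le.1 fun h6 => ?_⟩
    obtain ⟨t1, t2, t3⟩ := hT θ h4
    have h7 := ((h3 θ h4 h5 _ ⟨t1, h6⟩ t2).1 _ (right_mem_Icc.2 t1)).1
    linarith [h1 _ ⟨t1, h6⟩]
  have cT : ContinuousOn T {θ | ‖θ‖ ≤ ρ} := Metric.continuousOn_iff.2 fun θ0 h0 ε hε => by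
    obtain ⟨δ, hδ, h1⟩ := up θ0 h0 ε hε
    obtain ⟨δ', hδ', h2⟩ := lo θ0 h0 ε hε
    refine ⟨min δ δ', lt_min hδ hδ', fun θ hθ h => ?_⟩
    rw [dist_eq_norm, lt_min_iff] at h
    rw [Real.dist_eq, abs_lt]
    exact ⟨by linarith [h2 θ hθ h.2], by linarith [h1 θ hθ h.1]⟩
  refine topo_brouwer (F := fun θ => P θ (T θ)) M hρ hk
    (Metric.continuousOn_iff.2 fun θ0 h0 ε hε => ?_)
    (fun θ h => nz θ h _ (hT θ h).1 (hT θ h).2.2) (fun θ h => ?_) hM he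
  · obtain ⟨δ1, p1, h1⟩ := Metric.continuousOn_iff.1
      ((cP θ0 h0).comp cT fun θ h => (hT θ h).1) θ0 h0 _ (half_pos hε)
    obtain ⟨δ2, p2, h2⟩ := up θ0 h0 1 one_pos
    obtain ⟨δ3, p3, h3⟩ := stab θ0 h0 (T θ0 + 1) _ (half_pos hε)
    refine ⟨min δ1 (min δ2 δ3), lt_min p1 (lt_min p2 p3), fun θ hθ h => ?_⟩
    rw [lt_min_iff, lt_min_iff] at h
    obtain ⟨t1, t2, -⟩ := hT θ hθ
    have h4 := h1 θ hθ h.1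
    rw [dist_eq_norm] at h
    have h5 := ((h3 θ hθ h.2.2 _ ⟨t1, (h2 θ hθ h.2.1).le⟩ t2).1 _ (right_mem_Icc.2 t1)).2
    rw [← dist_eq_norm] at h5
    exact (dist_triangle _ (P θ0 (T θ)) _).trans_lt ((add_lt_add_of_le_of_lt h5 h4).trans_eq
      (add_halves ε))
  · obtain ⟨t1, t2, -⟩ := hT θ h.le
    have h1 : T θ = s0 := (t1.eq_or_lt.resolve_right fun h2 =>
      not_le.2 (t2 s0 ⟨le_rfl, h2⟩) (bdry θ h).1).symm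
    show P θ (T θ) = _
    rw [h1, (bdry θ h).2]

end Vale.Agent.P264
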