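import Vale.Agent.P264.Defs
import Vale.Agent.P264.Sol
import Vale.Agent.P264.Cert
import Vale.Agent.P264.Topo

/-! Interfaces of the blocks. Each block replaces its `sorry` by its main theorem. -/

namespace Vale.Agent.P264

/-- Block A: reduction to one dimension. -/
theorem blockA (c : Polynomial ℝ) (hc : InitOK c) :
    ∃ ψ0, IsKahlerPot ψ0 ∧ Inv ψ0 ∧ ∀ κ φ, IsCalabiFlow ψ0 κ φ → (∀ t, 0 ≤ t → Inv (φ t)) →
      ∃ S : Sol, Starts S c := by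
  sorry

/-- Block B: the certificate exists. -/
theorem blockB : Nonempty Cert := by
  sorry

/-- Block C: energy estimates (uses `topo`). -/
theorem blockC (K : Cert) : ∃ c : Polynomial ℝ, InitOK c ∧ ∀ S : Sol, ¬ Starts S c := by
  sorry

/-- Block U: symmetries of the initial metric are preserved. -/
theorem blockU (ψ0 : (Fin 8 → ℂ) → ℝ) (κ : ℝ) (φ : ℝ → (Fin 8 → ℂ) → ℝ)
    (h0 : IsKahlerPot ψ0) (hi : Inv ψ0) (h : IsCalabiFlow ψ0 κ φ) :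
    ∀ t, 0 ≤ t → Inv (φ t) := by
  sorry

theorem final_inv : ∃ ψ0, IsKahlerPot ψ0 ∧ Inv ψ0 ∧
    ∀ κ φ, IsCalabiFlow ψ0 κ φ → ¬ ∀ t, 0 ≤ t → Inv (φ t) := by
  obtain ⟨K⟩ := blockB
  obtain ⟨c, hc, hS⟩ := blockC K
  obtain ⟨ψ0, h1, h2, h3⟩ := blockA c hc
  refine ⟨ψ0, h1, h2, fun κ φ h hi => ?_⟩
  obtain ⟨S, hs⟩ := h3 κ φ h hi
  exact hS S hs

theorem final_full : ∃ ψ0, IsKahlerPot ψ0 ∧ ∀ κ φ, ¬ IsCalabiFlow ψ0 κ φ := by
  obtain ⟨ψ0, h1, h2, h3⟩ := final_inv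
  exact ⟨ψ0, h1, fun κ φ h => h3 κ φ h (blockU ψ0 κ φ h1 h2 h)⟩

end Vale.Agent.P264
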