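import Mathlib

/-! Calabi flow on complex projective 7-space, in homogeneous coordinates and affine charts. -/

open scoped ContDiff ComplexOrder
open Set

namespace Vale.Agent.P264

/-- Real second derivative of `u` at `z` in the directions `v`, `w`. -/
noncomputable def d2 {n : ℕ} (u : (Fin n → ℂ) → ℝ) (z v w : Fin n → ℂ) : ℝ :=
  fderiv ℝ (fun y => fderiv ℝ u y w) z v

/-- The complex Hessian: the matrix of the derivatives `d/dz_a d/dzbar_b` of `u` at `z`. -/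
noncomputable def cHess {n : ℕ} (u : (Fin n → ℂ) → ℝ) (z : Fin n → ℂ) :
    Matrix (Fin n) (Fin n) ℂ := fun a b =>
  (1 / 4 : ℂ) *
    (((d2 u z (Pi.single a 1) (Pi.single b 1) : ℝ) : ℂ)
      + ((d2 u z (Pi.single a Complex.I) (Pi.single b Complex.I) : ℝ) : ℂ)
      + Complex.I * (((d2 u z (Pi.single a 1) (Pi.single b Complex.I) : ℝ) : ℂ)
        - ((d2 u z (Pi.single a Complex.I) (Pi.single b 1) : ℝ) : ℂ)))

/-- Scalar curvature `tr_g Ric` of the Kaehler metric `g = cHess u` with local potential `u`,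
where `Ric = - cHess (log det g)`. -/
noncomputable def scal {n : ℕ} (u : (Fin n → ℂ) → ℝ) (z : Fin n → ℂ) : ℝ :=
  -(Matrix.trace ((cHess u z)⁻¹ * cHess (fun y => Real.log (cHess u y).det.re) z)).re

/-- The `j`-th affine chart of projective 7-space, in homogeneous coordinates. -/
def chart (j : Fin 8) (z : Fin 7 → ℂ) : Fin 8 → ℂ := Fin.insertNth j (1 : ℂ) z

/-- Local potential, in the `j`-th chart, of the form (Fubini-Study) `+ i d dbar ψ`. -/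
noncomputable def pot (ψ : (Fin 8 → ℂ) → ℝ) (j : Fin 8) (z : Fin 7 → ℂ) : ℝ :=
  Real.log (∑ k, ‖chart j z k‖ ^ 2) + ψ (chart j z)

/-- `ψ` is a smooth function on projective 7-space and (Fubini-Study) `+ i d dbar ψ` is positive. -/
structure IsKahlerPot (ψ : (Fin 8 → ℂ) → ℝ) : Prop where
  smooth : ContDiffOn ℝ ∞ ψ {Z | Z ≠ 0}
  hom : ∀ (c : ℂ) (Z : Fin 8 → ℂ), c ≠ 0 → Z ≠ 0 → ψ (c • Z) = ψ Z
  pos : ∀ (j : Fin 8) (z : Fin 7 → ℂ), (cHess (pot ψ j) z).PosDef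

/-- Invariance under the unitary group `U(7)` acting on the last seven homogeneous coordinates. -/
def Inv (ψ : (Fin 8 → ℂ) → ℝ) : Prop :=
  ∀ U ∈ Matrix.unitaryGroup (Fin 7) ℂ, ∀ (a : ℂ) (z : Fin 7 → ℂ),
    (Fin.cons a z : Fin 8 → ℂ) ≠ 0 → ψ (Fin.cons a (U.mulVec z)) = ψ (Fin.cons a z)

/-- A smooth solution, for all times `t ≥ 0`, of `dφ/dt = S(ω0 + i d dbar φ) - κ`, `φ 0 = 0`,
where `ω0 =` (Fubini-Study) `+ i d dbar ψ0`. -/
structure IsCalabiFlow (ψ0 : (Fin 8 → ℂ) → ℝ) (κ : ℝ) (φ : ℝ → (Fin 8 → ℂ) → ℝ) : Prop where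
  smooth : ContDiffOn ℝ ∞ (fun p : ℝ × (Fin 8 → ℂ) => φ p.1 p.2) (Ici 0 ×ˢ {Z | Z ≠ 0})
  init : ∀ Z, Z ≠ 0 → φ 0 Z = 0
  kahler : ∀ t, 0 ≤ t → IsKahlerPot (fun Z => ψ0 Z + φ t Z)
  eqn : ∀ t, 0 < t → ∀ (j : Fin 8) (z : Fin 7 → ℂ),
    HasDerivAt (fun τ => φ τ (chart j z)) (scal (pot (fun Z => ψ0 Z + φ t Z) j) z - κ) t

end Vale.Agent.P264
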