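import Vale.Agent.P264.A.Main
import Vale.Agent.P264.B.Main
import Vale.Agent.P264.C.Main
import Vale.Agent.P264.U.Main

/-! Assembly of the four blocks. -/

namespace Vale.Agent.P264

theorem main_inv : ∃ ψ0, IsKahlerPot ψ0 ∧ Inv ψ0 ∧
    ∀ κ φ, IsCalabiFlow ψ0 κ φ → ¬ ∀ t, 0 ≤ t → Inv (φ t) := by
  obtain ⟨K⟩ := blockB'
  obtain ⟨c, hc, hS⟩ := blockC' K
  obtain ⟨ψ0, h1, h2, h3⟩ := blockA' c hc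
  refine ⟨ψ0, h1, h2, fun κ φ h hi => ?_⟩
  obtain ⟨S, hs⟩ := h3 κ φ h hi
  exact hS S hs

theorem main_full : ∃ ψ0, IsKahlerPot ψ0 ∧ ∀ κ φ, ¬ IsCalabiFlow ψ0 κ φ := by
  obtain ⟨ψ0, h1, h2, h3⟩ := main_inv
  exact ⟨ψ0, h1, fun κ φ h => h3 κ φ h (blockU' ψ0 κ φ h1 h2 h)⟩

end Vale.Agent.P264
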